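import Vale.Agent.P372.H465.Flags
import Vale.Agent.P372.Swap.Core
import Vale.Agent.P372.Swap.Ineq

/-! The merge for two parties. -/

open Matrix Kronecker
open scoped ComplexOrder MatrixOrder

set_option linter.unusedSectionVars false

namespace Vale.Agent.P372.H465

open Vale.Agent.P372.H54 Vale.Agent.P372.H405

variable {A B : Type} [Fintype A] [DecidableEq A] [Fintype B] [DecidableEq B] {n : ℕ}

/-- The tensor product of two kernels. -/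
def kt (κA : Ker A A) (κB : Ker B B) : Ker (A × B) (A × B) :=
  fun p q r t => κA p.1 q.1 r.1 t.1 * κB p.2 q.2 r.2 t.2

/-- Alice's systems and Bob's systems collected. -/
def ee (A B : Type) (n : ℕ) : (Fin n → A × B) ≃ (Fin n → A) × (Fin n → B) where
  toFun f := (fun i => (f i).1, fun i => (f i).2)
  invFun p := fun i => (p.1 i, p.2 i)
  left_inv _ := rfl
  right_inv _ := rfl

/-- The product of an operator of Alice and an operator of Bob. -/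
def tens (a : Matrix (Fin n → A) (Fin n → A) ℂ) (b : Matrix (Fin n → B) (Fin n → B) ℂ) :
    Matrix (Fin n → A × B) (Fin n → A × B) ℂ :=
  (a ⊗ₖ b).submatrix (ee A B n) (ee A B n)

theorem isCP_kt {κA : Ker A A} {κB : Ker B B} (hA : IsCP κA) (hB : IsCP κB) :
    IsCP (kt κA κB) := by
  obtain ⟨N, V, rfl⟩ := hA
  obtain ⟨N', V', rfl⟩ := hB
  have h1 : kt (kraus V) (kraus V') = kraus fun l : Fin N × Fin N' => V l.1 ⊗ₖ V' l.2 := by
    funext p q r t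
    simp only [kt, kraus, Finset.sum_mul_sum, Fintype.sum_prod_type, kroneckerMap_apply]
    refine Finset.sum_congr rfl fun l _ => Finset.sum_congr rfl fun l' _ => ?_
    rw [star_mul']
    ring
  rw [h1]
  exact isCP_kraus _

theorem app_kt_tens (κA : Fin n → Ker A A) (κB : Fin n → Ker B B)
    (a : Matrix (Fin n → A) (Fin n → A) ℂ) (b : Matrix (Fin n → B) (Fin n → B) ℂ) :
    app (kp fun k => kt (κA k) (κB k)) (tens a b) = tens (app (kp κA) a) (app (kp κB) b) := by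
  ext f f'
  have h1 : ∀ u : (Fin n → A × B) → ℂ, ∑ g, u g = ∑ x : Fin n → A, ∑ y : Fin n → B,
      u ((ee A B n).symm (x, y)) := by
    intro u
    rw [← Equiv.sum_comp (ee A B n).symm, Fintype.sum_prod_type]
  rw [show app (kp fun k => kt (κA k) (κB k)) (tens a b) f f' =
    ∑ g, ∑ g', kp (fun k => kt (κA k) (κB k)) f f' g g' * tens a b g g' from rfl]
  rw [h1]
  simp only [h1]
  rw [show tens (app (kp κA) a) (app (kp κB) b) f f' =
    app (kp κA) a (fun i => (f i).1) (fun i => (f' i).1) *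
      app (kp κB) b (fun i => (f i).2) (fun i => (f' i).2) from rfl]
  simp only [app]
  rw [Finset.sum_mul_sum]
  refine Finset.sum_congr rfl fun x _ => Finset.sum_congr rfl fun y _ => ?_
  rw [Finset.sum_mul_sum]
  refine Finset.sum_congr rfl fun x' _ => Finset.sum_congr rfl fun y' _ => ?_
  rw [show tens a b ((ee A B n).symm (x, y)) ((ee A B n).symm (x', y')) = a x x' * b y y' from rfl]
  rw [show kp (fun k => kt (κA k) (κB k)) f f' ((ee A B n).symm (x, y)) ((ee A B n).symm (x', y')) =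
    ∏ k, (κA k (f k).1 (f' k).1 (x k) (x' k) * κB k (f k).2 (f' k).2 (y k) (y' k)) from rfl]
  rw [Finset.prod_mul_distrib]
  simp only [kp]
  ring

/-- Alice's part of the last labels. -/
noncomputable def gA : Bool → Ker A A
  | true => ((1 / 3 : ℝ) : ℂ) • idk
  | false => ((2 / 3 : ℝ) : ℂ) • rst 1

/-- Bob's part of the last labels. -/
noncomputable def gB : Bool → Ker B B
  | true => idk
  | false => rst 1

theorem Ga_eq (o : Bool) : (Ga o : Ker (A × B) (A × B)) = kt (gA o) (gB o) := by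
  funext p q r t
  cases o
  · simp only [Ga, gA, gB, kt, Pi.smul_apply, smul_eq_mul, rst, Fintype.card_prod,
      Matrix.one_apply, Prod.ext_iff]
    by_cases h1 : p.1 = q.1 <;> by_cases h2 : p.2 = q.2 <;> by_cases h3 : t.1 = r.1 <;>
      by_cases h4 : t.2 = r.2 <;> simp [h1, h2, h3, h4] <;> ring
  · simp only [Ga, gA, gB, kt, Pi.smul_apply, smul_eq_mul, idk, Prod.ext_iff]
    by_cases h1 : p.1 = r.1 <;> by_cases h2 : p.2 = r.2 <;> by_cases h3 : q.1 = t.1 <;>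
      by_cases h4 : q.2 = t.2 <;> simp [h1, h2, h3, h4]

theorem isCP_gA (o : Bool) : IsCP (gA o : Ker A A) := by
  cases o
  · exact isCP_smul (isCP_rst PosSemidef.one) (by norm_num)
  · exact isCP_smul isCP_idk (by norm_num)

theorem isCP_gB (o : Bool) : IsCP (gB o : Ker B B) := by
  cases o
  · exact isCP_rst PosSemidef.one
  · exact isCP_idk

theorem trace_sub (M N : Matrix (Fin n → A × B) (Fin n → A × B) ℂ) :
    (M.submatrix (ee A B n).symm (ee A B n).symm *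
      N.submatrix (ee A B n).symm (ee A B n).symm).trace = (M * N).trace := by
  rw [submatrix_mul_equiv]
  exact Equiv.sum_comp (ee A B n).symm (fun f => (M * N) f f)

theorem tens_sub (a : Matrix (Fin n → A) (Fin n → A) ℂ) (b : Matrix (Fin n → B) (Fin n → B) ℂ) :
    (tens a b).submatrix (ee A B n).symm (ee A B n).symm = a ⊗ₖ b := by
  rw [tens, submatrix_submatrix]
  simp

theorem tpow_eq (R : Matrix (A × B) (A × B) ℂ) :
    (pm fun _ : Fin n => R).submatrix (ee A B n).symm (ee A B n).symm = tpow n R := rfl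

/-- The end of the hybrid for product operators. -/
theorem core_flags {tA : Ker A A} {tB : Ker B B} (hA : IsCP tA) (hB : IsCP tB)
    {Q : Matrix (A × B) (A × B) ℂ} (hQ : Q.PosSemidef)
    {a₀ a₁ : Matrix (Fin n → A) (Fin n → A) ℂ} {b₀ b₁ : Matrix (Fin n → B) (Fin n → B) ℂ}
    (ha₀ : a₀.PosSemidef) (ha₁ : a₁.PosSemidef) (hb₀ : b₀.PosSemidef) (hb₁ : b₁.PosSemidef)
    (o : Fin n → Bool) (Z : Matrix (Fin n → A × B) (Fin n → A × B) ℂ) (hZ : Z.IsHermitian)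
    (h : (fromBlocks (app (kp fun k => Ga (o k)) (app (kp fun _ => kt tA tB) (tens a₁ b₁))) Z Z
      (app (kp fun k => Ga (o k)) (app (kp fun _ => kt tA tB) (tens a₀ b₀)))).PosSemidef) :
    2 * (pm (fun k => Mk Q (o k)) * Z).trace.re ≤
      (pm (fun k => Mk Q (o k)) *
        app (kp fun k => Ga (o k)) (app (kp fun _ => kt tA tB) (tens a₁ b₀))).trace.re +
      (pm (fun k => Mk Q (o k)) *
        app (kp fun k => Ga (o k)) (app (kp fun _ => kt tA tB) (tens a₀ b₁))).trace.re := by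
  have h1 : ∀ (a : Matrix (Fin n → A) (Fin n → A) ℂ) (b : Matrix (Fin n → B) (Fin n → B) ℂ),
      app (kp fun k => Ga (o k)) (app (kp fun _ => kt tA tB) (tens a b)) =
        tens (app (kp fun k => gA (o k)) (app (kp fun _ => tA) a))
          (app (kp fun k => gB (o k)) (app (kp fun _ => tB) b)) := by
    intro a b
    rw [app_kt_tens (fun _ => tA) (fun _ => tB)]
    simp only [Ga_eq]
    rw [app_kt_tens (fun k => gA (o k)) (fun k => gB (o k))]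
  have hpA : ∀ {a : Matrix (Fin n → A) (Fin n → A) ℂ}, a.PosSemidef →
      (app (kp fun k => gA (o k)) (app (kp fun _ => tA) a)).PosSemidef := fun ha =>
    (isCP_kp fun k => isCP_gA (o k)).psd ((isCP_kp fun _ => hA).psd ha)
  have hpB : ∀ {b : Matrix (Fin n → B) (Fin n → B) ℂ}, b.PosSemidef →
      (app (kp fun k => gB (o k)) (app (kp fun _ => tB) b)).PosSemidef := fun hb =>
    (isCP_kp fun k => isCP_gB (o k)).psd ((isCP_kp fun _ => hB).psd hb)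
  rw [h1, h1] at h
  rw [h1, h1, ← trace_sub, ← trace_sub, ← trace_sub, tens_sub, tens_sub]
  refine Swap.core_lin (hpA ha₀) (hpA ha₁) (hpB hb₀) (hpB hb₁) (hZ.submatrix _) ?_
    ((pm_psd fun k => Mk_psd hQ (o k)).submatrix _)
  have h2 := h.submatrix (Sum.map (ee A B n).symm (ee A B n).symm)
  convert h2 using 1
  ext (i | i) (j | j) <;> rfl

theorem IsFlip.mk' {P : Type} [Fintype P] [DecidableEq P] {κ : Ker P P} (h : IsCP κ)
    (h1 : app κ 1 = 1) (hd : ∀ M, dual κ M = app κ M)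
    (hco : ∀ Y, (app κ (Yᴴ * Y) - app κ Y * (app κ Y)ᴴ).PosSemidef) : IsFlip (appL κ) where
  trace X := by
    change (app κ X).trace = X.trace
    rw [← Matrix.one_mul (app κ X), trace_mul_app, hd, h1, Matrix.one_mul]
  one := h1
  herm X := app_conjTranspose h X
  dual X Y := by
    change (app κ X * Y).trace = (X * app κ Y).trace
    rw [Matrix.trace_mul_comm, trace_mul_app, hd, Matrix.trace_mul_comm]
  block X C Y hb := by
    change (fromBlocks (app κ X) (app κ C) (app κ C)ᴴ (app κ Y)).PosSemidef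
    rw [← app_conjTranspose h]
    exact h.blocks hb
  co := hco

/-- A product of two operators which are at least `ε`. -/
theorem kron_shift (a : Matrix (Fin n → A) (Fin n → A) ℂ) (b : Matrix (Fin n → B) (Fin n → B) ℂ)
    (ε : ℝ) :
    (a + (ε : ℂ) • 1) ⊗ₖ (b + (ε : ℂ) • 1) =
      a ⊗ₖ b + (ε : ℂ) • (a ⊗ₖ 1 + 1 ⊗ₖ b) + ((ε ^ 2 : ℝ) : ℂ) • 1 := by
  rw [add_kronecker, kronecker_add, kronecker_add, smul_kronecker, smul_kronecker, kronecker_smul,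
    kronecker_smul, one_kronecker_one, smul_smul]
  push_cast
  rw [pow_two]
  module

theorem lim_aux {a b0 b1 b2 c0 c1 c2 : ℝ}
    (h : ∀ ε : ℝ, 0 < ε → a - (b0 + ε * b1 + ε ^ 2 * b2) ≤ c0 + ε * c1 + ε ^ 2 * c2) :
    a - b0 ≤ c0 := by
  have h1 : Filter.Tendsto (fun ε : ℝ => c0 + ε * c1 + ε ^ 2 * c2 -
      (a - (b0 + ε * b1 + ε ^ 2 * b2))) (nhdsWithin 0 (Set.Ioi 0)) (nhds (c0 - (a - b0))) := by
    have h2 : Continuous (fun ε : ℝ => c0 + ε * c1 + ε ^ 2 * c2 -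
      (a - (b0 + ε * b1 + ε ^ 2 * b2))) := by fun_prop
    have h3 := (h2.tendsto 0).mono_left (nhdsWithin_le_nhds (s := Set.Ioi (0 : ℝ)))
    simpa using h3
  have h4 := ge_of_tendsto h1 (b := 0) (by
    filter_upwards [self_mem_nhdsWithin] with ε hε
    exact sub_nonneg.mpr (h ε hε))
  linarith

section Final

variable [Nonempty A] [Nonempty B]

theorem weight_eq' (ρ : Matrix ((Fin n → A) × (Fin n → B)) ((Fin n → A) × (Fin n → B)) ℂ)
    (X : Matrix (Fin n → A) (Fin n → A) ℂ) (Y : Matrix (Fin n → B) (Fin n → B) ℂ) :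
    weight ρ X Y = (ρ * ((Xᴴ * X) ⊗ₖ (Yᴴ * Y))).trace.re := by
  rw [weight, Matrix.trace_mul_comm, ← Matrix.mul_assoc, conjTranspose_kronecker,
    ← mul_kronecker_mul, Matrix.trace_mul_comm]

/-- The linear inequality for all `n`. -/
theorem lin_ineq {tA : Ker A A} {tB : Ker B B} (hA : IsCP tA) (hB : IsCP tB)
    (h1 : app (kt tA tB) 1 = 1) (hd : ∀ M, dual (kt tA tB) M = app (kt tA tB) M)
    (hS : IsFlip (appL (kp fun _ : Fin n => kt tA tB)))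
    {Q : Matrix (A × B) (A × B) ℂ} (hQ : Q.PosSemidef) (hQ2 : ((2 : ℂ) • 1 - Q).PosSemidef)
    (hQt : Q.trace = (Fintype.card (A × B) : ℂ))
    (X₀ X₁ : Matrix (Fin n → A) (Fin n → A) ℂ) (Y₀ Y₁ : Matrix (Fin n → B) (Fin n → B) ℂ)
    (t : ℝ) :
    let R := app (kt tA tB) (((1 / 3 : ℝ) : ℂ) • Q + ((2 / 3 : ℝ) : ℂ) • 1)
    4 * t * traceNorm ((X₀ ⊗ₖ Y₀) * tpow n R * (X₁ ⊗ₖ Y₁)ᴴ) -
      2 * t ^ 2 * (weight (tpow n R) X₀ Y₀ + weight (tpow n R) X₁ Y₁) ≤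
      (weight (tpow n R) X₀ Y₁ + weight (tpow n R) X₁ Y₀) / 2 := by
  intro R
  obtain ⟨W, hW, hWt⟩ := traceNorm_exists ((X₀ ⊗ₖ Y₀) * tpow n R * (X₁ ⊗ₖ Y₁)ᴴ)
  have hc := Swap.contr_blocks hW (X₀ ⊗ₖ Y₀) (X₁ ⊗ₖ Y₁)
  have e0 : ∀ (X : Matrix (Fin n → A) (Fin n → A) ℂ) (Y : Matrix (Fin n → B) (Fin n → B) ℂ),
      (X ⊗ₖ Y)ᴴ * (X ⊗ₖ Y) = (Xᴴ * X) ⊗ₖ (Yᴴ * Y) := by
    intro X Y
    rw [conjTranspose_kronecker, ← mul_kronecker_mul]
  rw [e0, e0] at hc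
  set C := (X₁ ⊗ₖ Y₁)ᴴ * W * (X₀ ⊗ₖ Y₀) with hC
  have hC' : (X₀ ⊗ₖ Y₀)ᴴ * Wᴴ * (X₁ ⊗ₖ Y₁) = Cᴴ := by
    rw [hC, conjTranspose_mul, conjTranspose_mul, conjTranspose_conjTranspose, Matrix.mul_assoc]
  rw [hC'] at hc
  have hF : (tpow n R * C).trace.re = traceNorm ((X₀ ⊗ₖ Y₀) * tpow n R * (X₁ ⊗ₖ Y₁)ᴴ) := by
    have h2 : (tpow n R * C).trace = (W * ((X₀ ⊗ₖ Y₀) * tpow n R * (X₁ ⊗ₖ Y₁)ᴴ)).trace := by
      rw [hC, Matrix.trace_mul_comm, Matrix.mul_assoc, Matrix.mul_assoc, Matrix.trace_mul_comm]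
      simp only [Matrix.mul_assoc]
    rw [h2, hWt, Complex.ofReal_re]
  have key : ∀ ε : ℝ, 0 < ε →
      4 * t * (tpow n R * C).trace.re - 2 * t ^ 2 *
        ((tpow n R * ((X₁ᴴ * X₁ + (ε : ℂ) • 1) ⊗ₖ (Y₁ᴴ * Y₁ + (ε : ℂ) • 1))).trace.re +
        (tpow n R * ((X₀ᴴ * X₀ + (ε : ℂ) • 1) ⊗ₖ (Y₀ᴴ * Y₀ + (ε : ℂ) • 1))).trace.re) ≤
      ((tpow n R * ((X₁ᴴ * X₁ + (ε : ℂ) • 1) ⊗ₖ (Y₀ᴴ * Y₀ + (ε : ℂ) • 1))).trace.re +
        (tpow n R * ((X₀ᴴ * X₀ + (ε : ℂ) • 1) ⊗ₖ (Y₁ᴴ * Y₁ + (ε : ℂ) • 1))).trace.re) / 2 := by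
    intro ε hε
    have hε' : (0 : ℂ) ≤ (ε : ℂ) := by exact_mod_cast hε.le
    have hpa : ∀ X : Matrix (Fin n → A) (Fin n → A) ℂ, (Xᴴ * X + (ε : ℂ) • 1).PosSemidef :=
      fun X => (posSemidef_conjTranspose_mul_self X).add (PosSemidef.one.smul hε')
    have hpb : ∀ Y : Matrix (Fin n → B) (Fin n → B) ℂ, (Yᴴ * Y + (ε : ℂ) • 1).PosSemidef :=
      fun Y => (posSemidef_conjTranspose_mul_self Y).add (PosSemidef.one.smul hε')
    have hsh : ∀ (X : Matrix (Fin n → A) (Fin n → A) ℂ) (Y : Matrix (Fin n → B) (Fin n → B) ℂ),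
        ((ε : ℂ) • ((Xᴴ * X) ⊗ₖ (1 : Matrix (Fin n → B) (Fin n → B) ℂ) +
          (1 : Matrix (Fin n → A) (Fin n → A) ℂ) ⊗ₖ (Yᴴ * Y))).PosSemidef := by
      intro X Y
      exact (((posSemidef_conjTranspose_mul_self X).kronecker PosSemidef.one).add
        (PosSemidef.one.kronecker (posSemidef_conjTranspose_mul_self Y))).smul hε'
    have he2 : (0 : ℂ) ≤ ((ε ^ 2 : ℝ) : ℂ) := by exact_mod_cast (sq_nonneg ε)
    have hX : (tens (X₁ᴴ * X₁ + (ε : ℂ) • 1) (Y₁ᴴ * Y₁ + (ε : ℂ) • 1) -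
        ((ε ^ 2 : ℝ) : ℂ) • 1).PosSemidef := by
      have h3 : tens (X₁ᴴ * X₁ + (ε : ℂ) • 1) (Y₁ᴴ * Y₁ + (ε : ℂ) • 1) -
          ((ε ^ 2 : ℝ) : ℂ) • 1 = ((X₁ᴴ * X₁) ⊗ₖ (Y₁ᴴ * Y₁) + (ε : ℂ) • ((X₁ᴴ * X₁) ⊗ₖ
            (1 : Matrix (Fin n → B) (Fin n → B) ℂ) +
            (1 : Matrix (Fin n → A) (Fin n → A) ℂ) ⊗ₖ (Y₁ᴴ * Y₁))).submatrix
              (ee A B n) (ee A B n) := by
        rw [tens, kron_shift]
        ext i j
        simp only [Matrix.sub_apply, submatrix_apply, Matrix.add_apply, Matrix.smul_apply,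
          Matrix.one_apply, EmbeddingLike.apply_eq_iff_eq]
        ring
      rw [h3]
      exact (((posSemidef_conjTranspose_mul_self X₁).kronecker
        (posSemidef_conjTranspose_mul_self Y₁)).add (hsh X₁ Y₁)).submatrix _
    have hbl : (fromBlocks (tens (X₁ᴴ * X₁ + (ε : ℂ) • 1) (Y₁ᴴ * Y₁ + (ε : ℂ) • 1))
        (C.submatrix (ee A B n) (ee A B n)) (C.submatrix (ee A B n) (ee A B n))ᴴ
        (tens (X₀ᴴ * X₀ + (ε : ℂ) • 1) (Y₀ᴴ * Y₀ + (ε : ℂ) • 1))).PosSemidef := by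
      have h3 : (fromBlocks ((X₁ᴴ * X₁ + (ε : ℂ) • 1) ⊗ₖ (Y₁ᴴ * Y₁ + (ε : ℂ) • 1)) C Cᴴ
          ((X₀ᴴ * X₀ + (ε : ℂ) • 1) ⊗ₖ (Y₀ᴴ * Y₀ + (ε : ℂ) • 1))).PosSemidef := by
        have h4 : fromBlocks ((X₁ᴴ * X₁ + (ε : ℂ) • 1) ⊗ₖ (Y₁ᴴ * Y₁ + (ε : ℂ) • 1)) C Cᴴ
            ((X₀ᴴ * X₀ + (ε : ℂ) • 1) ⊗ₖ (Y₀ᴴ * Y₀ + (ε : ℂ) • 1)) =
            fromBlocks ((X₁ᴴ * X₁) ⊗ₖ (Y₁ᴴ * Y₁)) C Cᴴ ((X₀ᴴ * X₀) ⊗ₖ (Y₀ᴴ * Y₀)) +
            (fromBlocks ((ε : ℂ) • ((X₁ᴴ * X₁) ⊗ₖ (1 : Matrix (Fin n → B) (Fin n → B) ℂ) +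
              (1 : Matrix (Fin n → A) (Fin n → A) ℂ) ⊗ₖ (Y₁ᴴ * Y₁)) + ((ε ^ 2 : ℝ) : ℂ) • 1) 0 0
            ((ε : ℂ) • ((X₀ᴴ * X₀) ⊗ₖ (1 : Matrix (Fin n → B) (Fin n → B) ℂ) +
              (1 : Matrix (Fin n → A) (Fin n → A) ℂ) ⊗ₖ (Y₀ᴴ * Y₀)) +
                ((ε ^ 2 : ℝ) : ℂ) • 1)) := by
          rw [kron_shift, kron_shift, fromBlocks_add, add_zero, add_zero, add_assoc, add_assoc]
        rw [h4]
        refine hc.add ?_
        have h5 : ∀ {D E : Matrix ((Fin n → A) × (Fin n → B)) ((Fin n → A) × (Fin n → B)) ℂ},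
            D.PosSemidef → E.PosSemidef → (fromBlocks D 0 0 E).PosSemidef := by
          intro D E hD hE
          obtain ⟨D', hD'⟩ := CStarAlgebra.nonneg_iff_eq_star_mul_self.mp hD.nonneg
          obtain ⟨E', hE'⟩ := CStarAlgebra.nonneg_iff_eq_star_mul_self.mp hE.nonneg
          rw [star_eq_conjTranspose] at hD' hE'
          have h6 : fromBlocks D 0 0 E = (fromBlocks D' 0 0 E')ᴴ * fromBlocks D' 0 0 E' := by
            rw [fromBlocks_conjTranspose, fromBlocks_multiply, hD', hE']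
            simp
          rw [h6]
          exact posSemidef_conjTranspose_mul_self _
        exact h5 ((hsh X₁ Y₁).add (PosSemidef.one.smul he2))
          ((hsh X₀ Y₀).add (PosSemidef.one.smul he2))
      have h4 := h3.submatrix (Sum.map (ee A B n) (ee A B n))
      convert h4 using 1
      ext (i | i) (j | j) <;> rfl
    have h3 := merge h1 hd (isCP_kt hA hB) hS hQ hQ2 hQt (pow_pos hε 2) hX hbl
      (U := tens (X₁ᴴ * X₁ + (ε : ℂ) • 1) (Y₀ᴴ * Y₀ + (ε : ℂ) • 1))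
      (V := tens (X₀ᴴ * X₀ + (ε : ℂ) • 1) (Y₁ᴴ * Y₁ + (ε : ℂ) • 1))
      (fun o Z hZ hb => core_flags hA hB hQ (hpa X₀) (hpa X₁) (hpb Y₀) (hpb Y₁) o Z hZ hb) t
    simp only [← trace_sub (pm fun _ : Fin n => _), tens_sub, tpow_eq] at h3
    have h4 : (C.submatrix (ee A B n) (ee A B n)).submatrix (ee A B n).symm (ee A B n).symm =
        C := by
      rw [submatrix_submatrix]
      simp
    rw [h4] at h3
    exact h3
  simp only [kron_shift, Matrix.mul_add, Matrix.trace_add, Matrix.mul_smul, Matrix.trace_smul,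
    smul_eq_mul, Complex.add_re, Complex.re_ofReal_mul] at key
  rw [hF] at key
  simp only [weight_eq']
  refine le_trans (le_of_eq ?_) (le_trans (lim_aux (a := 4 * t *
    traceNorm ((X₀ ⊗ₖ Y₀) * tpow n R * (X₁ ⊗ₖ Y₁)ᴴ))
    (b0 := 2 * t ^ 2 * ((tpow n R * ((X₁ᴴ * X₁) ⊗ₖ (Y₁ᴴ * Y₁))).trace.re +
      (tpow n R * ((X₀ᴴ * X₀) ⊗ₖ (Y₀ᴴ * Y₀))).trace.re))
    (b1 := 2 * t ^ 2 * (((tpow n R * ((X₁ᴴ * X₁) ⊗ₖ 1)).trace.re +
      (tpow n R * (1 ⊗ₖ (Y₁ᴴ * Y₁))).trace.re) + ((tpow n R * ((X₀ᴴ * X₀) ⊗ₖ 1)).trace.re +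
      (tpow n R * (1 ⊗ₖ (Y₀ᴴ * Y₀))).trace.re)))
    (b2 := 2 * t ^ 2 * (2 * (tpow n R * 1).trace.re))
    (c0 := ((tpow n R * ((X₁ᴴ * X₁) ⊗ₖ (Y₀ᴴ * Y₀))).trace.re +
      (tpow n R * ((X₀ᴴ * X₀) ⊗ₖ (Y₁ᴴ * Y₁))).trace.re) / 2)
    (c1 := (((tpow n R * ((X₁ᴴ * X₁) ⊗ₖ 1)).trace.re +
      (tpow n R * (1 ⊗ₖ (Y₀ᴴ * Y₀))).trace.re) + ((tpow n R * ((X₀ᴴ * X₀) ⊗ₖ 1)).trace.re +
      (tpow n R * (1 ⊗ₖ (Y₁ᴴ * Y₁))).trace.re)) / 2)
    (c2 := (tpow n R * 1).trace.re) ?_) (le_of_eq ?_))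
  · ring
  · intro ε hε
    refine le_trans (le_of_eq ?_) (le_trans (key ε hε) (le_of_eq ?_)) <;> ring
  · ring

end Final

end Vale.Agent.P372.H465
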