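import Vale.Agent.P372.H465.Site
import Vale.Agent.P372.H405.Corner

/-! The labels `true` (active) and `false` (inactive) of a site, and the hybrid in closed form. -/

open Matrix Kronecker
open scoped ComplexOrder MatrixOrder

set_option linter.unusedSectionVars false

namespace Vale.Agent.P372.H465

open Vale.Agent.P372.H54 Vale.Agent.P372.H405

section Flags

variable {s : Type} [Fintype s] [DecidableEq s]

/-- The first labels. -/
noncomputable def Lk (G : Matrix s s ℂ) : Bool → Ker s s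
  | true => ((1 / 3 : ℝ) : ℂ) • rst G
  | false => ((2 / 3 : ℝ) : ℂ) • idk

/-- The change of the labels, output first. -/
noncomputable def Th (Q : Matrix s s ℂ) : Bool → Bool → Ker s s
  | true, false => ((1 / 2 : ℝ) : ℂ) • idk
  | true, true => 0
  | false, false => ((1 / 2 : ℝ) : ℂ) • rst ((2 : ℂ) • 1 - Q)
  | false, true => rst 1

/-- The last labels. -/
noncomputable def Ga : Bool → Ker s s
  | true => ((1 / 3 : ℝ) : ℂ) • idk
  | false => ((2 / 3 : ℝ) : ℂ) • rst 1

/-- The last weights. -/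
def Mk (Q : Matrix s s ℂ) : Bool → Matrix s s ℂ
  | true => Q
  | false => 1

theorem isCP_Lk {G : Matrix s s ℂ} (hG : G.PosSemidef) (b : Bool) : IsCP (Lk G b) := by
  cases b
  · exact isCP_smul isCP_idk (by norm_num)
  · exact isCP_smul (isCP_rst hG) (by norm_num)

theorem isCP_Th {Q : Matrix s s ℂ} (hQ2 : ((2 : ℂ) • 1 - Q).PosSemidef) (o b : Bool) :
    IsCP (Th Q o b) := by
  cases o <;> cases b
  · exact isCP_smul (isCP_rst hQ2) (by norm_num)
  · exact isCP_rst PosSemidef.one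
  · exact isCP_smul isCP_idk (by norm_num)
  · exact isCP_zero

theorem Mk_psd {Q : Matrix s s ℂ} (hQ : Q.PosSemidef) (b : Bool) : (Mk Q b).PosSemidef := by
  cases b
  · exact PosSemidef.one
  · exact hQ

theorem card_inv_trace [Nonempty s] :
    (Fintype.card s : ℂ)⁻¹ * (1 : Matrix s s ℂ).trace = 1 := by
  rw [Matrix.trace_one]
  exact inv_mul_cancel₀ (Nat.cast_ne_zero.mpr Fintype.card_ne_zero)

theorem app_rst_one [Nonempty s] : app (rst (1 : Matrix s s ℂ)) 1 = 1 := by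
  rw [app_rst, Matrix.one_mul, card_inv_trace, one_smul]

theorem comp_Lk {τ : Ker s s} (h1 : app τ 1 = 1) (hd : ∀ M, dual τ M = app τ M)
    (Q : Matrix s s ℂ) (b : Bool) : H54.comp τ (Lk (app τ Q) b) = H54.comp (Lk Q b) τ := by
  cases b
  · simp only [Lk, comp_smul, smul_comp, comp_idk, idk_comp]
  · simp only [Lk, comp_smul, smul_comp, comp_rst h1, rst_comp, hd]

theorem sum_Th_Lk [Nonempty s] (Q : Matrix s s ℂ) (o : Bool) :
    ∑ b, H54.comp (Th Q o b) (Lk Q b) = Ga o := by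
  rw [Fintype.sum_bool]
  cases o
  · simp only [Th, Lk, Ga, comp_smul, smul_comp, comp_idk, comp_rst app_rst_one]
    have h1 : rst ((2 : ℂ) • 1 - Q) = (2 : ℂ) • rst 1 - rst Q := by
      rw [eq_sub_iff_add_eq, ← rst_add, sub_add_cancel, rst_smul]
    rw [h1]
    push_cast
    module
  · have h0 : H54.comp (0 : Ker s s) (((1 / 3 : ℝ) : ℂ) • rst Q) = 0 := by
      funext j j' h h'
      simp [H54.comp]
    simp only [Th, Lk, Ga, h0, comp_smul, smul_comp, comp_idk]
    push_cast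
    module

theorem sum_dual_Th [Nonempty s] (Q : Matrix s s ℂ) (b : Bool) :
    ∑ o, dual (Th Q o b) (Mk Q o) = 1 := by
  rw [Fintype.sum_bool]
  cases b
  · simp only [Th, Mk, dual_smul, dual_idk, dual_rst, card_inv_trace]
    push_cast
    module
  · have h0 : dual (0 : Ker s s) Q = 0 := by
      ext i j
      simp [dual]
    simp only [Th, Mk, h0, dual_rst, card_inv_trace, one_smul, zero_add]

theorem sum_dual_Ga [Nonempty s] (Q : Matrix s s ℂ) :
    ∑ o, dual (Ga o) (Mk Q o) = ((1 / 3 : ℝ) : ℂ) • Q + ((2 / 3 : ℝ) : ℂ) • 1 := by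
  rw [Fintype.sum_bool]
  simp only [Ga, Mk, dual_smul, dual_idk, dual_rst, card_inv_trace, one_smul]

theorem sum_dual_Lk [Nonempty s] (G : Matrix s s ℂ) :
    ∑ b, dual (Lk G b) 1 = ((1 / 3 : ℝ) : ℂ) • G + ((2 / 3 : ℝ) : ℂ) • 1 := by
  rw [Fintype.sum_bool]
  simp only [Lk, dual_smul, dual_idk, dual_rst, card_inv_trace, one_smul]

end Flags

section Omega

variable {s : Type} [Fintype s] [DecidableEq s] {n : ℕ}

/-- `app` as a linear map. -/
def appL {I J : Type} [Fintype I] [Fintype J] (κ : Ker J I) :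
    Matrix I I ℂ →ₗ[ℂ] Matrix J J ℂ where
  toFun := app κ
  map_add' := app_add κ
  map_smul' := app_smul κ

theorem app_kp_pm (κ : Fin n → Ker s s) (M : Fin n → Matrix s s ℂ) :
    app (kp κ) (pm M) = pm fun k => app (κ k) (M k) := by
  ext f f'
  simp only [app, kp, pm, ← Finset.prod_mul_distrib]
  exact sum_prod_pi2 (fun k i i' => κ k (f k) (f' k) i i' * M k i i')

theorem trace_app_pm (κ : Fin n → Ker s s) (X : Matrix (Fin n → s) (Fin n → s) ℂ) :
    (app (kp κ) X).trace = (pm (fun k => dual (κ k) 1) * X).trace := by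
  rw [← Matrix.one_mul (app (kp κ) X), ← pm_one, trace_mul_app, kp_dual]

theorem sum_trace_Lk [Nonempty s] (G : Matrix s s ℂ) (X : Matrix (Fin n → s) (Fin n → s) ℂ) :
    ∑ f : Fin n → Bool, (app (kp fun k => Lk G (f k)) X).trace =
      (pm (fun _ : Fin n => ((1 / 3 : ℝ) : ℂ) • G + ((2 / 3 : ℝ) : ℂ) • 1) * X).trace := by
  simp only [trace_app_pm, ← sum_dual_Lk G]
  rw [← sum_pm (fun _ b => dual (Lk G b) 1), Finset.sum_mul, Matrix.trace_sum]

theorem sum_trace_Th [Nonempty s] (Q : Matrix s s ℂ) (f : Fin n → Bool)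
    (X : Matrix (Fin n → s) (Fin n → s) ℂ) :
    ∑ o : Fin n → Bool, (pm (fun k => Mk Q (o k)) *
      app (kp fun k => Th Q (o k) (f k)) X).trace = X.trace := by
  simp only [trace_mul_app, kp_dual]
  rw [← Matrix.trace_sum, ← Finset.sum_mul,
    sum_pm (fun k b => dual (Th Q b (f k)) (Mk Q b))]
  simp only [sum_dual_Th, pm_one, Matrix.one_mul]

theorem sum_trace_Ga [Nonempty s] (Q : Matrix s s ℂ) (X : Matrix (Fin n → s) (Fin n → s) ℂ) :
    ∑ o : Fin n → Bool, (pm (fun k => Mk Q (o k)) * app (kp fun k => Ga (o k)) X).trace =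
      (pm (fun _ : Fin n => ((1 / 3 : ℝ) : ℂ) • Q + ((2 / 3 : ℝ) : ℂ) • 1) * X).trace := by
  simp only [trace_mul_app, kp_dual]
  rw [← Matrix.trace_sum, ← Finset.sum_mul, sum_pm (fun _ b => dual (Ga b) (Mk Q b))]
  simp only [sum_dual_Ga]

theorem sum_app_Th [Nonempty s] (Q : Matrix s s ℂ) (o : Fin n → Bool)
    (X : Matrix (Fin n → s) (Fin n → s) ℂ) :
    ∑ f : Fin n → Bool, app (kp fun k => Th Q (o k) (f k)) (app (kp fun k => Lk Q (f k)) X) =
      app (kp fun k => Ga (o k)) X := by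
  simp only [← app_comp, kp_comp]
  rw [← app_sum, sum_kp (fun k b => H54.comp (Th Q (o k) b) (Lk Q b))]
  simp only [sum_Th_Lk]

/-- The image of a matrix which is at least `δ`. -/
theorem posDef_app {P P' : Type} [Fintype P] [DecidableEq P] [Fintype P'] [DecidableEq P']
    {κ : Ker P' P} (h : IsCP κ) {c : ℝ} (hc : 0 < c)
    (h1 : app κ 1 = (c : ℂ) • 1) {X : Matrix P P ℂ} {δ : ℝ} (hδ : 0 < δ)
    (hX : (X - (δ : ℂ) • 1).PosSemidef) : (app κ X).PosDef := by
  have h2 : app κ X = app κ (X - (δ : ℂ) • 1) + (((δ * c : ℝ)) : ℂ) • 1 := by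
    conv_lhs => rw [← sub_add_cancel X ((δ : ℂ) • 1)]
    rw [app_add, app_smul, h1, smul_smul]
    push_cast
    rfl
  rw [h2]
  refine PosDef.posSemidef_add (h.psd hX) (PosDef.one.smul ?_)
  exact_mod_cast mul_pos hδ hc

theorem app_Lk_one (G : Matrix s s ℂ) [Nonempty s] (hG : G.trace = (Fintype.card s : ℂ))
    (b : Bool) : app (Lk G b) 1 = ((if b then 1 / 3 else 2 / 3 : ℝ) : ℂ) • 1 := by
  have hd : (Fintype.card s : ℂ) ≠ 0 := Nat.cast_ne_zero.mpr Fintype.card_ne_zero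
  cases b
  · simp only [Lk, app_smul_ker, app_idk]
    simp
  · simp only [Lk, app_smul_ker, app_rst, Matrix.mul_one, hG, inv_mul_cancel₀ hd, one_smul]
    simp

theorem pm_smul_one (c : Fin n → ℝ) :
    pm (fun k => (c k : ℂ) • (1 : Matrix s s ℂ)) = ((∏ k, c k : ℝ) : ℂ) • 1 := by
  rw [← pm_one]
  ext f g
  simp only [pm, Matrix.smul_apply, smul_eq_mul, Finset.prod_mul_distrib, Complex.ofReal_prod]

theorem posDef_Lk [Nonempty s] {G : Matrix s s ℂ} (hG : G.PosSemidef)
    (hGt : G.trace = (Fintype.card s : ℂ)) (f : Fin n → Bool)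
    {X : Matrix (Fin n → s) (Fin n → s) ℂ} {δ : ℝ} (hδ : 0 < δ)
    (hX : (X - (δ : ℂ) • 1).PosSemidef) : (app (kp fun k => Lk G (f k)) X).PosDef := by
  refine posDef_app (isCP_kp fun k => isCP_Lk hG (f k))
    (c := ∏ k, (if f k then 1 / 3 else 2 / 3 : ℝ)) ?_ ?_ hδ hX
  · refine Finset.prod_pos fun k _ => ?_
    split_ifs <;> norm_num
  · rw [← pm_one, app_kp_pm]
    simp only [app_Lk_one G hGt]
    rw [pm_smul_one, pm_one]

end Omega

section Merge

variable {s : Type} [Fintype s] [DecidableEq s] [Nonempty s] {n : ℕ}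

/-- The hybrid: corners of the first labels give corners of the last labels. -/
theorem hybrid {Q : Matrix s s ℂ} (hQ : Q.PosSemidef) (hQ2 : ((2 : ℂ) • 1 - Q).PosSemidef)
    {X Y U V : Matrix (Fin n → s) (Fin n → s) ℂ}
    (hcore : ∀ (o : Fin n → Bool) (Z : Matrix (Fin n → s) (Fin n → s) ℂ), Z.IsHermitian →
      (fromBlocks (app (kp fun k => Ga (o k)) X) Z Z (app (kp fun k => Ga (o k)) Y)).PosSemidef →
      2 * (pm (fun k => Mk Q (o k)) * Z).trace.re ≤
        (pm (fun k => Mk Q (o k)) * app (kp fun k => Ga (o k)) U).trace.re +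
        (pm (fun k => Mk Q (o k)) * app (kp fun k => Ga (o k)) V).trace.re)
    (Z : (Fin n → Bool) → Matrix (Fin n → s) (Fin n → s) ℂ) (hZ : ∀ f, (Z f).IsHermitian)
    (hb : ∀ f, (fromBlocks (app (kp fun k => Lk Q (f k)) X) (Z f) (Z f)
      (app (kp fun k => Lk Q (f k)) Y)).PosSemidef) :
    2 * ∑ f, (Z f).trace.re ≤
      (pm (fun _ : Fin n => ((1 / 3 : ℝ) : ℂ) • Q + ((2 / 3 : ℝ) : ℂ) • 1) * U).trace.re +
      (pm (fun _ : Fin n => ((1 / 3 : ℝ) : ℂ) • Q + ((2 / 3 : ℝ) : ℂ) • 1) * V).trace.re := by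
  have hcp : ∀ o f : Fin n → Bool, IsCP (kp fun k => Th Q (o k) (f k)) := fun o f =>
    isCP_kp fun k => isCP_Th hQ2 (o k) (f k)
  have h1 : ∀ o : Fin n → Bool,
      2 * (pm (fun k => Mk Q (o k)) * ∑ f, app (kp fun k => Th Q (o k) (f k)) (Z f)).trace.re ≤
        (pm (fun k => Mk Q (o k)) * app (kp fun k => Ga (o k)) U).trace.re +
        (pm (fun k => Mk Q (o k)) * app (kp fun k => Ga (o k)) V).trace.re := by
    intro o
    refine hcore o _ ?_ ?_
    · rw [IsHermitian, conjTranspose_sum]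
      refine Finset.sum_congr rfl fun f _ => ?_
      rw [← app_conjTranspose (hcp o f), (hZ f).eq]
    · have h2 := posSemidef_sum (Finset.univ : Finset (Fin n → Bool))
        (fun f _ => (hcp o f).blocks (hb f))
      convert h2 using 1
      rw [← sum_app_Th Q o X, ← sum_app_Th Q o Y]
      ext (i | i) (j | j) <;> simp [Matrix.sum_apply]
  have h3 := Finset.sum_le_sum fun o (_ : o ∈ (Finset.univ : Finset (Fin n → Bool))) => h1 o
  rw [Finset.sum_add_distrib, ← Complex.re_sum, ← Complex.re_sum, sum_trace_Ga, sum_trace_Ga,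
    ← Finset.mul_sum, ← Complex.re_sum] at h3
  refine le_trans (le_of_eq ?_) h3
  congr 1
  rw [← Complex.re_sum]
  congr 1
  simp only [Finset.mul_sum, Matrix.trace_sum]
  rw [Finset.sum_comm]
  exact Finset.sum_congr rfl fun f _ => (sum_trace_Th Q f (Z f)).symm

/-- The merge on `Fin n → s`. -/
theorem merge {τ : Ker s s} (h1 : app τ 1 = 1) (hd : ∀ M, dual τ M = app τ M) (hcp : IsCP τ)
    (hS : IsFlip (appL (kp fun _ : Fin n => τ)))
    {Q : Matrix s s ℂ} (hQ : Q.PosSemidef) (hQ2 : ((2 : ℂ) • 1 - Q).PosSemidef)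
    (hQt : Q.trace = (Fintype.card s : ℂ))
    {X Y C U V : Matrix (Fin n → s) (Fin n → s) ℂ} {δ : ℝ} (hδ : 0 < δ)
    (hX : (X - (δ : ℂ) • 1).PosSemidef) (hC : (fromBlocks X C Cᴴ Y).PosSemidef)
    (hcore : ∀ (o : Fin n → Bool) (Z : Matrix (Fin n → s) (Fin n → s) ℂ), Z.IsHermitian →
      (fromBlocks (app (kp fun k => Ga (o k)) (app (kp fun _ => τ) X)) Z Z
        (app (kp fun k => Ga (o k)) (app (kp fun _ => τ) Y))).PosSemidef →
      2 * (pm (fun k => Mk Q (o k)) * Z).trace.re ≤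
        (pm (fun k => Mk Q (o k)) *
          app (kp fun k => Ga (o k)) (app (kp fun _ => τ) U)).trace.re +
        (pm (fun k => Mk Q (o k)) *
          app (kp fun k => Ga (o k)) (app (kp fun _ => τ) V)).trace.re)
    (t : ℝ) :
    let R := app τ (((1 / 3 : ℝ) : ℂ) • Q + ((2 / 3 : ℝ) : ℂ) • 1)
    4 * t * (pm (fun _ : Fin n => R) * C).trace.re -
      2 * t ^ 2 * ((pm (fun _ : Fin n => R) * X).trace.re + (pm (fun _ : Fin n => R) * Y).trace.re) ≤
      ((pm (fun _ : Fin n => R) * U).trace.re + (pm (fun _ : Fin n => R) * V).trace.re) / 2 := by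
  intro R
  set G := app τ Q with hGd
  have hG : G.PosSemidef := hcp.psd hQ
  have hGt : G.trace = (Fintype.card s : ℂ) := by
    rw [hGd, ← Matrix.one_mul (app τ Q), trace_mul_app, hd, h1, Matrix.one_mul, hQt]
  have hR : R = ((1 / 3 : ℝ) : ℂ) • G + ((2 / 3 : ℝ) : ℂ) • 1 := by
    simp only [R, app_add, app_smul, h1]
    rfl
  have hSc : ∀ (f : Fin n → Bool) (W : Matrix (Fin n → s) (Fin n → s) ℂ),
      app (kp fun _ => τ) (app (kp fun k => Lk G (f k)) W) =
        app (kp fun k => Lk Q (f k)) (app (kp fun _ => τ) W) := by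
    intro f W
    simp only [← app_comp, kp_comp, hGd, comp_Lk h1 hd]
  have hst : ∀ f : Fin n → Bool, ∃ Z : Matrix (Fin n → s) (Fin n → s) ℂ, Z.IsHermitian ∧
      (fromBlocks (app (kp fun k => Lk Q (f k)) (app (kp fun _ => τ) X)) Z Z
        (app (kp fun k => Lk Q (f k)) (app (kp fun _ => τ) Y))).PosSemidef ∧
      ∀ t : ℝ, 4 * t * (app (kp fun k => Lk G (f k)) C).trace.re -
        2 * t ^ 2 * ((app (kp fun k => Lk G (f k)) X).trace.re +
          (app (kp fun k => Lk G (f k)) Y).trace.re) ≤ Z.trace.re := by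
    intro f
    have hcpf : IsCP (kp fun k => Lk G (f k)) := isCP_kp fun k => isCP_Lk hG (f k)
    have h2 := hcpf.blocks hC
    rw [app_conjTranspose hcpf] at h2
    obtain ⟨Z, hZ1, hZ2, hZ3⟩ := start hS (posDef_Lk hG hGt f hδ hX) h2
    refine ⟨Z, hZ1, ?_, hZ3⟩
    rw [← hSc, ← hSc]
    exact hZ2
  choose Z hZ1 hZ2 hZ3 using hst
  have h3 := hybrid hQ hQ2 hcore Z hZ1 hZ2
  have h4 := Finset.sum_le_sum fun f (_ : f ∈ (Finset.univ : Finset (Fin n → Bool))) => hZ3 f t
  rw [Finset.sum_sub_distrib, ← Finset.mul_sum, ← Finset.mul_sum, Finset.sum_add_distrib,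
    ← Complex.re_sum, ← Complex.re_sum, ← Complex.re_sum, sum_trace_Lk, sum_trace_Lk,
    sum_trace_Lk, ← hR] at h4
  have h5 : ∀ W : Matrix (Fin n → s) (Fin n → s) ℂ,
      (pm (fun _ : Fin n => ((1 / 3 : ℝ) : ℂ) • Q + ((2 / 3 : ℝ) : ℂ) • 1) *
        app (kp fun _ => τ) W).trace = (pm (fun _ : Fin n => R) * W).trace := by
    intro W
    rw [trace_mul_app, kp_dual]
    simp only [hd]
    rfl
  rw [h5, h5] at h3
  linarith

end Merge

end Vale.Agent.P372.H465
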