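import Vale.Agent.P372.H54.Ker

/-! One-site kernels of the hybrid and their identities. -/

open Matrix Kronecker
open scoped ComplexOrder MatrixOrder

set_option linter.unusedSectionVars false

namespace Vale.Agent.P372.H465

open Vale.Agent.P372.H54

section Gen

variable {H I J L : Type} [Fintype H] [Fintype I] [Fintype J] [Fintype L]

theorem isCP_smul {κ : Ker J I} (h : IsCP κ) {c : ℝ} (hc : 0 ≤ c) : IsCP ((c : ℂ) • κ) := by
  obtain ⟨N, V, rfl⟩ := h
  refine ⟨N, fun l => ((√c : ℝ) : ℂ) • V l, ?_⟩
  funext j j' i i'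
  have h1 : ((√c : ℝ) : ℂ) * ((√c : ℝ) : ℂ) = (c : ℂ) := by
    rw [← Complex.ofReal_mul, Real.mul_self_sqrt hc]
  simp only [Pi.smul_apply, kraus, smul_eq_mul, Matrix.smul_apply, Finset.mul_sum]
  refine Finset.sum_congr rfl fun l _ => ?_
  have h2 : star (((√c : ℝ) : ℂ) * V l j' i') = ((√c : ℝ) : ℂ) * star (V l j' i') := by
    rw [star_mul', Complex.star_def, Complex.conj_ofReal]
  rw [h2, ← h1]
  ring

theorem isCP_sum {ι : Type} (s : Finset ι) {κ : ι → Ker J I} (h : ∀ i ∈ s, IsCP (κ i)) :
    IsCP (∑ i ∈ s, κ i) := by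
  classical
  induction s using Finset.induction_on with
  | empty => simpa using isCP_zero
  | insert a s ha ih =>
    rw [Finset.sum_insert ha]
    exact (h a (Finset.mem_insert_self a s)).add
      (ih fun i hi => h i (Finset.mem_insert_of_mem hi))

theorem app_conjTranspose {κ : Ker J I} (h : IsCP κ) (X : Matrix I I ℂ) :
    app κ Xᴴ = (app κ X)ᴴ := by
  obtain ⟨N, V, rfl⟩ := h
  rw [app_kraus, app_kraus, conjTranspose_sum]
  refine Finset.sum_congr rfl fun l _ => ?_
  rw [conjTranspose_mul, conjTranspose_mul, conjTranspose_conjTranspose, Matrix.mul_assoc]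

theorem app_smul_ker (c : ℂ) (κ : Ker J I) (X : Matrix I I ℂ) :
    app (c • κ) X = c • app κ X := by
  ext j j'
  simp only [app, Pi.smul_apply, Matrix.smul_apply, smul_eq_mul, Finset.mul_sum, mul_assoc]

theorem app_add_ker (κ κ' : Ker J I) (X : Matrix I I ℂ) :
    app (κ + κ') X = app κ X + app κ' X := by
  ext j j'
  simp only [app, Pi.add_apply, Matrix.add_apply, add_mul, Finset.sum_add_distrib]

theorem dual_smul (c : ℂ) (κ : Ker J I) (M : Matrix J J ℂ) : dual (c • κ) M = c • dual κ M := by
  ext i' i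
  simp only [dual, Pi.smul_apply, Matrix.smul_apply, smul_eq_mul, Finset.mul_sum]
  refine Finset.sum_congr rfl fun j _ => Finset.sum_congr rfl fun j' _ => ?_
  ring

theorem comp_smul (c : ℂ) (κ₂ : Ker J I) (κ₁ : Ker I H) : H54.comp κ₂ (c • κ₁) = c • H54.comp κ₂ κ₁ := by
  funext j j' h h'
  simp only [H54.comp, Pi.smul_apply, smul_eq_mul, Finset.mul_sum]
  refine Finset.sum_congr rfl fun i _ => Finset.sum_congr rfl fun i' _ => ?_
  ring

theorem smul_comp (c : ℂ) (κ₂ : Ker J I) (κ₁ : Ker I H) : comp (c • κ₂) κ₁ = c • H54.comp κ₂ κ₁ := by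
  funext j j' h h'
  simp only [H54.comp, Pi.smul_apply, smul_eq_mul, Finset.mul_sum, mul_assoc]

end Gen

section Site

variable {s : Type} [Fintype s] [DecidableEq s]

/-- The identity. -/
def idk : Ker s s := fun p q r t => if p = r ∧ q = t then 1 else 0

/-- `X ↦ (tr (G X) / d) • 1`. -/
noncomputable def rst (G : Matrix s s ℂ) : Ker s s :=
  fun p q r t => if p = q then (Fintype.card s : ℂ)⁻¹ * G t r else 0

theorem idk_eq_kraus : (idk : Ker s s) = kraus fun _ : Unit => (1 : Matrix s s ℂ) := by
  funext p q r t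
  simp only [idk, kraus, Finset.univ_unique, Finset.sum_singleton, Matrix.one_apply]
  by_cases h1 : p = r <;> by_cases h2 : q = t <;> simp [h1, h2]

theorem isCP_idk : IsCP (idk : Ker s s) := by
  rw [idk_eq_kraus]
  exact isCP_kraus _

theorem app_idk (X : Matrix s s ℂ) : app idk X = X := by
  rw [idk_eq_kraus, app_kraus]
  simp

theorem comp_idk (κ : Ker s s) : H54.comp κ idk = κ := by
  funext j j' h h'
  simp only [H54.comp, idk]
  rw [Finset.sum_eq_single h, Finset.sum_eq_single h']
  · simp
  · intro b _ hb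
    simp [hb]
  · simp
  · intro b _ hb
    simp [hb]
  · simp

theorem idk_comp (κ : Ker s s) : H54.comp idk κ = κ := by
  funext j j' h h'
  simp only [H54.comp, idk]
  rw [Finset.sum_eq_single j, Finset.sum_eq_single j']
  · simp
  · intro b _ hb
    simp [Ne.symm hb]
  · simp
  · intro b _ hb
    simp [Ne.symm hb]
  · simp

theorem dual_idk (M : Matrix s s ℂ) : dual idk M = M := by
  ext i' i
  simp only [dual, idk]
  rw [Finset.sum_eq_single i, Finset.sum_eq_single i']
  · simp
  · intro b _ hb
    simp [hb]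
  · simp
  · intro b _ hb
    simp [hb]
  · simp

theorem rst_smul (c : ℂ) (G : Matrix s s ℂ) : rst (c • G) = c • rst G := by
  funext p q r t
  simp only [rst, Pi.smul_apply, Matrix.smul_apply, smul_eq_mul]
  split_ifs <;> ring

theorem rst_add (G G' : Matrix s s ℂ) : rst (G + G') = rst G + rst G' := by
  funext p q r t
  simp only [rst, Pi.add_apply, Matrix.add_apply]
  split_ifs <;> ring

theorem app_rst (G X : Matrix s s ℂ) :
    app (rst G) X = ((Fintype.card s : ℂ)⁻¹ * (G * X).trace) • (1 : Matrix s s ℂ) := by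
  ext p q
  simp only [app, rst, Matrix.smul_apply, Matrix.one_apply, smul_eq_mul]
  by_cases h : p = q
  · simp only [h, if_true, mul_one, Matrix.trace, Matrix.diag_apply, Matrix.mul_apply,
      Finset.mul_sum]
    rw [Finset.sum_comm]
    refine Finset.sum_congr rfl fun j _ => Finset.sum_congr rfl fun i _ => ?_
    ring
  · simp [h]

theorem isCP_rst {G : Matrix s s ℂ} (hG : G.PosSemidef) : IsCP (rst G) := by
  obtain ⟨B, hB⟩ := CStarAlgebra.nonneg_iff_eq_star_mul_self.mp hG.nonneg
  rw [star_eq_conjTranspose] at hB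
  have h1 : IsCP (kraus fun l : s × s => (fun j i => if j = l.1 then B l.2 i else 0 :
      Matrix s s ℂ)) := isCP_kraus _
  have h2 := isCP_smul h1 (c := (Fintype.card s : ℝ)⁻¹) (by positivity)
  convert h2 using 1
  funext p q r t
  simp only [rst, Pi.smul_apply, kraus, smul_eq_mul, Fintype.sum_prod_type]
  by_cases h : p = q
  · subst h
    rw [if_pos rfl, Finset.sum_eq_single p]
    · rw [hB]
      simp only [if_true, Matrix.mul_apply, conjTranspose_apply]
      push_cast
      congr 1
      refine Finset.sum_congr rfl fun k _ => ?_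
      ring
    · intro b _ hb
      simp [Ne.symm hb]
    · simp
  · rw [if_neg h]
    rw [Finset.sum_eq_zero, mul_zero]
    intro a _
    refine Finset.sum_eq_zero fun b _ => ?_
    by_cases h1 : p = a
    · have h3 : q ≠ a := fun h4 => h (h1.trans h4.symm)
      simp [h3]
    · simp [h1]

theorem comp_rst {κ : Ker s s} (hκ : app κ 1 = 1) (G : Matrix s s ℂ) :
    H54.comp κ (rst G) = rst G := by
  funext j j' h h'
  have h1 : ∑ i, κ j j' i i = if j = j' then 1 else 0 := by
    have h2 := congrFun (congrFun hκ j) j'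
    rw [Matrix.one_apply] at h2
    rw [← h2]
    simp only [app, Matrix.one_apply, mul_ite, mul_one, mul_zero, Finset.sum_ite_eq,
      Finset.mem_univ, if_true]
  simp only [H54.comp, rst, mul_ite, mul_zero, Finset.sum_ite_eq, Finset.mem_univ, if_true]
  rw [← Finset.sum_mul, h1]
  split_ifs <;> simp

theorem rst_comp (κ : Ker s s) (G : Matrix s s ℂ) : H54.comp (rst G) κ = rst (dual κ G) := by
  funext j j' h h'
  simp only [H54.comp, rst, dual, ite_mul, zero_mul]
  by_cases hj : j = j'
  · simp only [hj, if_true, Finset.mul_sum]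
    refine Finset.sum_congr rfl fun i _ => Finset.sum_congr rfl fun i' _ => ?_
    ring
  · simp [hj]

theorem dual_rst (G M : Matrix s s ℂ) :
    dual (rst G) M = ((Fintype.card s : ℂ)⁻¹ * M.trace) • G := by
  ext i' i
  simp only [dual, rst, Matrix.smul_apply, smul_eq_mul, Matrix.trace, Matrix.diag_apply,
    mul_ite, mul_zero, Finset.sum_ite_eq, Finset.mem_univ, if_true, Finset.mul_sum, Finset.sum_mul]
  refine Finset.sum_congr rfl fun j _ => ?_
  ring

end Site

end Vale.Agent.P372.H465
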